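import Vale.Agent.P091.T0.Defs

/-!
# P091, T0: Petermichl averaging, the kernel identity on one scale  (helper814)
-/

set_option autoImplicit false

open MeasureTheory intervalIntegral Set

noncomputable section

namespace Vale.Agent.P091.T0

theorem measurable_eta : Measurable eta := by
  unfold eta
  refine Measurable.ite ?_ measurable_const (Measurable.ite ?_ measurable_const measurable_const)
  · exact (measurableSet_Ico : MeasurableSet (Set.Ico (0:ℝ) (1/2)))
  · exact (measurableSet_Ico : MeasurableSet (Set.Ico (1/2:ℝ) 1))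

theorem measurable_sg : Measurable sg := by
  unfold sg
  refine Measurable.ite ?_ measurable_const (Measurable.ite ?_ measurable_const measurable_const)
  · exact (measurableSet_Iio : MeasurableSet (Set.Iio (1/4:ℝ)))
  · exact (measurableSet_Iio : MeasurableSet (Set.Iio (3/4:ℝ)))

theorem abs_eta_le (u : ℝ) : |eta u| ≤ 1 := by
  unfold eta; split_ifs <;> simp

theorem abs_sg (u : ℝ) : |sg u| = 1 := by
  unfold sg; split_ifs <;> simp

theorem continuous_kap : Continuous kap := by unfold kap; fun_prop

theorem integral_abs_sub (a b c : ℝ) :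
    ∫ s in a..b, |s - c| = (b - c) * |b - c| / 2 - (a - c) * |a - c| / 2 := by
  have hd : ∀ x : ℝ, HasDerivAt (fun s : ℝ => s * |s| / 2) |x| x := by
    intro x
    rcases lt_trichotomy x 0 with h | h | h
    · have h1 : HasDerivAt (fun s : ℝ => s * (-s) / 2) (-x) x := by
        have := (((hasDerivAt_id' x).mul (hasDerivAt_neg' x)).div_const 2)
        refine this.congr_deriv ?_
        ring
      rw [abs_of_neg h]
      refine h1.congr_of_eventuallyEq ?_
      filter_upwards [Iio_mem_nhds h] with s hs
      rw [abs_of_neg hs]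
    · subst h
      simp only [abs_zero]
      rw [hasDerivAt_iff_isLittleO_nhds_zero]
      simp only [zero_add, abs_zero, mul_zero, zero_div, sub_zero, smul_eq_mul]
      rw [Asymptotics.isLittleO_iff]
      intro c hc
      filter_upwards [Metric.ball_mem_nhds (0:ℝ) hc] with s hs
      rw [Metric.mem_ball, dist_zero_right, Real.norm_eq_abs] at hs
      rw [Real.norm_eq_abs, abs_div, abs_mul, abs_abs, Real.norm_eq_abs, abs_two]
      nlinarith [abs_nonneg s]
    · have h1 : HasDerivAt (fun s : ℝ => s * s / 2) x x := by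
        have := (((hasDerivAt_id x).mul (hasDerivAt_id x)).div_const 2)
        refine this.congr_deriv ?_
        simp
      rw [abs_of_pos h]
      refine h1.congr_of_eventuallyEq ?_
      filter_upwards [Ioi_mem_nhds h] with s hs
      rw [abs_of_pos hs]
  have h2 : ∀ x ∈ Set.uIcc a b, HasDerivAt (fun s : ℝ => (s - c) * |s - c| / 2) |x - c| x := by
    intro x _
    exact (hd (x - c)).comp_sub_const x c
  rw [intervalIntegral.integral_eq_sub_of_hasDerivAt h2 (Continuous.intervalIntegrable (by fun_prop) _ _)]

/-- primitive of `sg` on `[0,1)` -/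
def Sg (r : ℝ) : ℝ := (|r| - 2 * |r - 1 / 4| + 2 * |r - 3 / 4| - |r - 1|) / 2

theorem continuous_Sg : Continuous Sg := by unfold Sg; fun_prop

theorem intervalIntegrable_sg (a b : ℝ) : IntervalIntegrable sg volume a b := by
  refine (intervalIntegrable_const (c := (1:ℝ))).mono_fun measurable_sg.aestronglyMeasurable ?_
  filter_upwards with u
  rw [Real.norm_eq_abs, abs_sg, norm_one]

theorem integral_sg (a b : ℝ) (ha : 0 ≤ a) (hab : a ≤ b) (hb : b ≤ 1) :
    ∫ u in a..b, sg u = Sg b - Sg a := by
  refine MeasureTheory.integral_eq_of_hasDerivAt_off_countable Sg sg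
    (s := {1/4, 3/4}) (Set.Countable.insert _ (Set.countable_singleton _))
    continuous_Sg.continuousOn ?_ (intervalIntegrable_sg a b)
  rintro x ⟨hx, hxs⟩
  rw [min_eq_left hab, max_eq_right hab] at hx
  simp only [Set.mem_insert_iff, Set.mem_singleton_iff, not_or] at hxs
  have hx0 : 0 < x := lt_of_le_of_lt ha hx.1
  have hx1 : x < 1 := lt_of_lt_of_le hx.2 hb
  rcases lt_or_gt_of_ne hxs.1 with h1 | h1
  · have e : sg x = 1 := by unfold sg; rw [if_pos h1]
    rw [e]
    refine (hasDerivAt_id x).congr_of_eventuallyEq ?_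
    filter_upwards [Ioo_mem_nhds hx0 h1] with s hs
    simp only [id]
    unfold Sg
    rw [abs_of_pos hs.1, abs_of_neg (by linarith [hs.2] : s - 1 / 4 < 0),
      abs_of_neg (by linarith [hs.2] : s - 3 / 4 < 0), abs_of_neg (by linarith [hs.2] : s - 1 < 0)]
    ring
  · rcases lt_or_gt_of_ne hxs.2 with h2 | h2
    · have e : sg x = -1 := by unfold sg; rw [if_neg (not_lt.2 h1.le), if_pos h2]
      rw [e]
      have h3 : HasDerivAt (fun s : ℝ => 1 / 2 - s) (-1) x := (hasDerivAt_id' x).const_sub (1 / 2)
      refine h3.congr_of_eventuallyEq ?_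
      filter_upwards [Ioo_mem_nhds h1 h2] with s hs
      unfold Sg
      rw [abs_of_pos (by linarith [hs.1] : 0 < s), abs_of_pos (by linarith [hs.1] : 0 < s - 1 / 4),
        abs_of_neg (by linarith [hs.2] : s - 3 / 4 < 0),
        abs_of_neg (by linarith [hs.2] : s - 1 < 0)]
      ring
    · have e : sg x = 1 := by
        unfold sg; rw [if_neg (not_lt.2 h1.le), if_neg (not_lt.2 h2.le)]
      rw [e]
      have h3 : HasDerivAt (fun s : ℝ => s - 1) 1 x := by
        simpa using (hasDerivAt_id x).sub_const 1
      refine h3.congr_of_eventuallyEq ?_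
      filter_upwards [Ioo_mem_nhds h2 hx1] with s hs
      unfold Sg
      rw [abs_of_pos (by linarith [hs.1] : 0 < s), abs_of_pos (by linarith [hs.1] : 0 < s - 1 / 4),
        abs_of_pos (by linarith [hs.1] : 0 < s - 3 / 4),
        abs_of_neg (by linarith [hs.2] : s - 1 < 0)]
      ring

theorem Sg_of_nonpos {w : ℝ} (h : w ≤ 0) : Sg w = 0 := by
  unfold Sg
  rw [abs_of_nonpos h, abs_of_nonpos (by linarith : w - 1 / 4 ≤ 0),
    abs_of_nonpos (by linarith : w - 3 / 4 ≤ 0), abs_of_nonpos (by linarith : w - 1 ≤ 0)]
  ring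

theorem Sg_of_one_le {w : ℝ} (h : 1 ≤ w) : Sg w = 0 := by
  unfold Sg
  rw [abs_of_nonneg (by linarith : 0 ≤ w), abs_of_nonneg (by linarith : 0 ≤ w - 1 / 4),
    abs_of_nonneg (by linarith : 0 ≤ w - 3 / 4), abs_of_nonneg (by linarith : 0 ≤ w - 1)]
  ring

/-- indicator of `[w, ∞)` -/
def st (w u : ℝ) : ℝ := if w ≤ u then 1 else 0

theorem measurable_st (w : ℝ) : Measurable (st w) := by
  unfold st
  exact Measurable.ite (measurableSet_Ici : MeasurableSet (Set.Ici w)) measurable_const
    measurable_const

theorem intervalIntegrable_sg_st (w a b : ℝ) :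
    IntervalIntegrable (fun u => sg u * st w u) volume a b := by
  refine (intervalIntegrable_const (c := (1:ℝ))).mono_fun
    (measurable_sg.mul (measurable_st w)).aestronglyMeasurable ?_
  filter_upwards with u
  rw [Real.norm_eq_abs, abs_mul, abs_sg, norm_one, one_mul]
  unfold st; split_ifs <;> simp

theorem integral_sg_st (w : ℝ) : ∫ u in (0:ℝ)..1, sg u * st w u = - Sg w := by
  rcases le_or_gt w 0 with h | h
  · rw [Sg_of_nonpos h]
    have : ∫ u in (0:ℝ)..1, sg u * st w u = ∫ u in (0:ℝ)..1, sg u := by
      refine intervalIntegral.integral_congr fun u hu => ?_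
      rw [Set.uIcc_of_le zero_le_one] at hu
      simp only [st]
      rw [if_pos (h.trans hu.1), mul_one]
    rw [this, integral_sg 0 1 le_rfl zero_le_one le_rfl, Sg_of_one_le le_rfl,
      Sg_of_nonpos le_rfl]
    simp
  · rcases le_or_gt 1 w with h1 | h1
    · rw [Sg_of_one_le h1, neg_zero]
      have : ∫ u in (0:ℝ)..1, sg u * st w u = ∫ u in (0:ℝ)..1, (0:ℝ) := by
        refine intervalIntegral.integral_congr_ae ?_
        have h0 : ∀ᵐ u : ℝ, u ≠ 1 := by
          rw [ae_iff]; simp
        filter_upwards [h0] with u hu hmem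
        rw [Set.uIoc_of_le zero_le_one] at hmem
        simp only [st]
        rw [if_neg, mul_zero]
        intro hle
        exact hu (le_antisymm hmem.2 (h1.trans hle))
      rw [this]; simp
    · rw [← intervalIntegral.integral_add_adjacent_intervals
        (intervalIntegrable_sg_st w 0 w) (intervalIntegrable_sg_st w w 1)]
      have e1 : ∫ u in (0:ℝ)..w, sg u * st w u = ∫ u in (0:ℝ)..w, (0:ℝ) := by
        refine intervalIntegral.integral_congr_ae ?_
        have h0 : ∀ᵐ u : ℝ, u ≠ w := by
          rw [ae_iff]; simp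
        filter_upwards [h0] with u hu hmem
        rw [Set.uIoc_of_le h.le] at hmem
        simp only [st]
        rw [if_neg, mul_zero]
        intro hle
        exact hu (le_antisymm hmem.2 hle)
      have e2 : ∫ u in w..1, sg u * st w u = ∫ u in w..1, sg u := by
        refine intervalIntegral.integral_congr fun u hu => ?_
        rw [Set.uIcc_of_le h1.le] at hu
        simp only [st]
        rw [if_pos hu.1, mul_one]
      rw [e1, e2, integral_sg w 1 h.le h1.le le_rfl, Sg_of_one_le le_rfl]
      simp

theorem eta_eq_st (u t : ℝ) : eta (u - t) = st t u - 2 * st (t + 1 / 2) u + st (t + 1) u := by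
  unfold eta st
  rcases lt_or_ge u t with h | h
  · rw [if_neg (by intro h'; linarith [h'.1]), if_neg (by intro h'; linarith [h'.1]),
      if_neg (not_le.2 h), if_neg (by intro h'; linarith), if_neg (by intro h'; linarith)]
    norm_num
  · rcases lt_or_ge u (t + 1 / 2) with h1 | h1
    · rw [if_pos ⟨by linarith, by linarith⟩, if_pos h, if_neg (not_le.2 h1),
        if_neg (by intro h'; linarith)]
      norm_num
    · rcases lt_or_ge u (t + 1) with h2 | h2
      · rw [if_neg (by intro h'; linarith [h'.2]), if_pos ⟨by linarith, by linarith⟩, if_pos h,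
          if_pos h1, if_neg (not_le.2 h2)]
        norm_num
      · rw [if_neg (by intro h'; linarith [h'.2]), if_neg (by intro h'; linarith [h'.2]), if_pos h,
          if_pos h1, if_pos h2]
        norm_num

/-- PET1, one period -/
theorem integral_sg_eta (t : ℝ) : ∫ u in (0:ℝ)..1, sg u * eta (u - t) = kap t := by
  have e : ∀ u, sg u * eta (u - t)
      = sg u * st t u - 2 * (sg u * st (t + 1 / 2) u) + sg u * st (t + 1) u := by
    intro u; rw [eta_eq_st]; ring
  simp_rw [e]
  rw [intervalIntegral.integral_add, intervalIntegral.integral_sub,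
    intervalIntegral.integral_const_mul, integral_sg_st, integral_sg_st, integral_sg_st]
  · unfold Sg kap
    have e1 : t + 1 / 2 - 1 / 4 = t + 1 / 4 := by ring
    have e2 : t + 1 / 2 - 3 / 4 = t - 1 / 4 := by ring
    have e3 : t + 1 / 2 - 1 = t - 1 / 2 := by ring
    have e4 : t + 1 - 1 / 4 = t + 3 / 4 := by ring
    have e5 : t + 1 - 3 / 4 = t + 1 / 4 := by ring
    have e6 : t + 1 - 1 = t := by ring
    rw [e1, e2, e3, e4, e5, e6]
    ring
  · exact intervalIntegrable_sg_st _ _ _
  · exact (intervalIntegrable_sg_st _ _ _).const_mul _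
  · exact (intervalIntegrable_sg_st _ _ _).sub ((intervalIntegrable_sg_st _ _ _).const_mul _)
  · exact intervalIntegrable_sg_st _ _ _

/-- averages of periodic functions over whole numbers of periods -/
theorem integral_fract {E : Type*} [NormedAddCommGroup E] [NormedSpace ℝ E] (g : ℝ → E)
    (hg : IntervalIntegrable g volume 0 1) (c : ℝ) (n : ℕ) :
    ∫ u in c..(c + n), g (Int.fract u) = (n : ℝ) • ∫ u in (0:ℝ)..1, g u := by
  have hp : Function.Periodic (fun u : ℝ => g (Int.fract u)) 1 := by
    intro u; simp only [Int.fract_add_one]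
  have hcongr : ∀ᵐ u : ℝ, u ∈ Set.uIoc (0:ℝ) 1 → g u = g (Int.fract u) := by
    have h0 : ∀ᵐ u : ℝ, u ≠ 1 := by
      rw [ae_iff]; simp
    filter_upwards [h0] with u hu hmem
    rw [Set.uIoc_of_le zero_le_one] at hmem
    rw [Int.fract_eq_self.2 ⟨hmem.1.le, lt_of_le_of_ne hmem.2 hu⟩]
  have hi : IntervalIntegrable (fun u : ℝ => g (Int.fract u)) volume 0 1 := by
    refine hg.congr_ae ?_
    exact (ae_restrict_iff' measurableSet_uIoc).2 hcongr
  have h1 := hp.intervalIntegral_add_zsmul_eq (n : ℤ) c
    (hp.intervalIntegrable₀ one_ne_zero hi)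
  have h2 := hp.intervalIntegral_add_eq c 0
  have h3 : ((n : ℤ) • (1:ℝ)) = n := by simp
  rw [h3] at h1
  rw [h1, h2, zero_add, natCast_zsmul, ← Nat.cast_smul_eq_nsmul ℝ]
  congr 1
  exact (intervalIntegral.integral_congr_ae hcongr).symm

theorem intervalIntegrable_sg_eta (t a b : ℝ) :
    IntervalIntegrable (fun u => sg u * eta (u - t)) volume a b := by
  refine (intervalIntegrable_const (c := (1:ℝ))).mono_fun
    (measurable_sg.mul (measurable_eta.comp (measurable_id.sub_const t))).aestronglyMeasurable ?_
  filter_upwards with u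
  rw [Real.norm_eq_abs, abs_mul, abs_sg, norm_one, one_mul]
  exact abs_eta_le _

/-- PET1: average over the translations; `α` runs over a whole number of periods (the length of
the top interval), so that one `α` serves all levels of the nested grid -/
theorem Sh_avg (q : ℝ) (hq : 0 < q) (a : ℝ) (n : ℕ) (x y : ℝ) :
    ∫ α in a..(a + n / q), Sh q α x y = n / q * (q * kap ((x - y) * q)) := by
  unfold Sh
  rw [intervalIntegral.integral_const_mul]
  have e : ∀ α : ℝ, sg (Int.fract ((x - α) * q)) * eta (Int.fract ((x - α) * q) + (y - x) * q)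
      = (fun v : ℝ => sg (Int.fract v) * eta (Int.fract v - (x - y) * q)) (x * q - q * α) := by
    intro α
    simp only
    have e1 : (x - α) * q = x * q - q * α := by ring
    have e2 : Int.fract (x * q - q * α) + (y - x) * q
      = Int.fract (x * q - q * α) - (x - y) * q := by ring
    rw [e1, e2]
  rw [intervalIntegral.integral_congr (fun α _ => e α),
    intervalIntegral.integral_comp_sub_mul
      (fun v : ℝ => sg (Int.fract v) * eta (Int.fract v - (x - y) * q)) hq.ne']
  have e3 : x * q - q * a = (x * q - q * (a + n / q)) + n := by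
    field_simp; ring
  rw [e3, integral_fract (fun v => sg v * eta (v - (x - y) * q))
    (intervalIntegrable_sg_eta _ _ _), integral_sg_eta]
  simp only [smul_eq_mul]
  field_simp

end Vale.Agent.P091.T0
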